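import Vale.Agent.P333.Defs
import Vale.Agent.P333.Time

open Vale.Agent.P333 Vale.Agent.Lib.TM

namespace Vale.Agent.Results.P333.TwoApprox

lemma code_list {β : Type} [Enc β] (f : β → List Bool) (h : ∀ x, (enc x).code = f x)
    (l : List β) : (enc l).code = codeList f l := by
  induction l with
  | nil => rfl
  | cons x l ih => simp [enc_cons, Tr.code, codeList, h, ih]

lemma code_str (s : List ℕ) : (enc s).code = codeStr s :=
  code_list _ (fun k => code_list _ (fun b => by cases b <;> rfl) k.bits) s

lemma code_inst (S : List (List ℕ)) : (enc S).code = codeInst S := code_list _ code_str S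

/-- The shortest common superstring problem has a polynomial-time `2`-approximation. -/
theorem result : HasApprox 2 ∧ rhoStar ≤ 2 := by
  have h : HasApprox 2 := by
    refine ⟨alg, ?_, fun S => ⟨(alg_spec S).1, ?_⟩⟩
    · rw [← funext code_str, ← funext code_inst]
      exact ct_alg.polyTime
    · obtain ⟨T, h1, h2⟩ : OPT S ∈ {n | ∃ T, IsSuper S T ∧ T.length = n} :=
        Nat.sInf_mem ⟨_, _, flatten_super S, rfl⟩
      rw [← h2]
      exact_mod_cast (alg_spec S).2 T h1
  exact ⟨h, csInf_le ⟨1, fun _ k => k.1⟩ ⟨by norm_num, h⟩⟩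

end Vale.Agent.Results.P333.TwoApprox
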